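import Vale.Agent.P323.H14.StarStage
import Vale.Agent.P323.H26.Contract
import Vale.Agent.P323.H142.Compose

/-!
# The span construction in the forms used by the two glue files
-/

namespace Vale.Agent.P323.H14

open CategoryTheory Vale.Agent.P323.Z

universe u

attribute [instance] H14.Star.cat

/-- The span category in the form of the contract file of helper26. -/
theorem exists_star_contract (T : Type u) [Category.{u} T]
    (mono : ∀ {x y : T} (f : x ⟶ y), Mono f)
    (pb : ∀ {x y b : T} (f : x ⟶ b) (g : y ⟶ b),
      ∃ (z : T) (p : z ⟶ x) (q : z ⟶ y), IsPB p q f g) :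
    Nonempty (Vale.Agent.P323.Z.Star T) := by
  have : AM T := ⟨mono⟩
  have : HP T := ⟨pb⟩
  exact ⟨{
    X := StOb T
    Ψ := emb T
    inj := fun x y hxy => by
      have h : StOb.old x = StOb.old y := hxy
      injection h
    faithful := fun {x y f g} hfg => by
      have h0 : o f = o g := hfg
      unfold o at h0
      exact h0
    full := fun f => by
      obtain ⟨g, hg⟩ := old_old f
      exact ⟨g, hg.symm⟩
    src := fun {d b} f => by
      cases d with
      | old d => exact ⟨d, rfl⟩
      | sp l r => exact (no_old f).elim
    pb := fun h => star_pb_old h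
    mono := star_mono
    pbX := star_pb_exists
    from_T := fun w => by
      cases w with
      | old x => exact ⟨x, ⟨𝟙 _⟩⟩
      | sp l r => exact ⟨_, ⟨jL l r (𝟙 _)⟩⟩
    am := fun l r => StOb.sp l r
    jl := fun l r => jL l r (𝟙 _)
    jr := fun l r => jR l r (𝟙 _)
    K1 := fun l r => star_K1 l r
    K2 := fun l r l' r' p m q hl hr => star_K2 l r l' r' p m q hl hr }⟩

/-- The span category in the form of the glue file of helper142. -/
theorem exists_astep (W : Type u) [Category.{u} W] (a : ℕ → W) (ι : ∀ n, a n ⟶ a (n + 1))
    (h : IsStage W a ι) : Nonempty (Vale.Agent.P323.H142.AStep W a ι) :=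
  let s := star W a ι h
  ⟨{
      T := s.T
      Ψ := s.Ψ
      inj := s.inj
      faithful := s.faithful
      full := s.full
      src := s.src
      pb := s.pb
      stage := s.stage
      am := s.am
      jl := s.jl
      jr := s.jr
      K1 := s.K1
      K2 := s.K2 }⟩

end Vale.Agent.P323.H14
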