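import Vale.Agent.P323.H14.Adapt
import Vale.Agent.P323.H533.WStep

/-!
# The one-step theorem
-/

namespace Vale.Agent.P323.H14

open CategoryTheory Vale.Agent.P323.Z

universe u

/-- **One step of the tower.** -/
theorem exists_step {S : Type u} [Category.{u} S] {a : ℕ → S} {ι : ∀ n, a n ⟶ a (n + 1)}
    (hS : IsStage S a ι) : Nonempty (Step S a ι) := by
  obtain ⟨w⟩ := H533.exists_wstep hS
  obtain ⟨A⟩ := exists_astep w.W (fun n => w.Φ.obj (a n)) (fun n => w.Φ.map (ι n)) w.stage
  exact ⟨H142.compose w A⟩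

end Vale.Agent.P323.H14
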