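import Vale.Agent.P323.Z.Step

/-!
# The category of spans `StOb D` (section 4)

Objects are the old objects together with all spans `z ⟶ x`, `z ⟶ y`.
Points `old d ⟶ sp l r` form the pushout of the hom sets, and morphisms between spans are
the cartesian triples.  There are no morphisms from a span to an old object.
-/

namespace Vale.Agent.P323.H14

open CategoryTheory Vale.Agent.P323.Z

universe u

/-- Objects: old objects and spans. -/
inductive StOb (D : Type u) [Category.{u} D] : Type u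
  | old (x : D) : StOb D
  | sp {z x y : D} (l : z ⟶ x) (r : z ⟶ y) : StOb D

variable {D : Type u} [Category.{u} D]

section Points

variable {z x y : D} (l : z ⟶ x) (r : z ⟶ y)

/-- The gluing relation on points. -/
inductive PtRel (d : D) : ((d ⟶ x) ⊕ (d ⟶ y)) → ((d ⟶ x) ⊕ (d ⟶ y)) → Prop
  | glue (w : d ⟶ z) : PtRel d (Sum.inl (w ≫ l)) (Sum.inr (w ≫ r))

/-- Points of a span at `d`: the pushout of hom sets. -/
def Pt (d : D) : Type u := Quot (PtRel l r d)

/-- Left points. -/
def Pt.inl {d : D} (s : d ⟶ x) : Pt l r d := Quot.mk _ (Sum.inl s)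

/-- Right points. -/
def Pt.inr {d : D} (s : d ⟶ y) : Pt l r d := Quot.mk _ (Sum.inr s)

theorem Pt.glue {d : D} (w : d ⟶ z) : Pt.inl l r (w ≫ l) = Pt.inr l r (w ≫ r) :=
  Quot.sound (PtRel.glue w)

theorem Pt.cases {d : D} (t : Pt l r d) : (∃ s, t = Pt.inl l r s) ∨ ∃ s, t = Pt.inr l r s := by
  induction t using Quot.ind with
  | mk a =>
    cases a with
    | inl s => exact Or.inl ⟨s, rfl⟩
    | inr s => exact Or.inr ⟨s, rfl⟩

/-- The closed form of the equivalence relation generated by `PtRel` (for monos). -/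
def PtGood {d : D} : ((d ⟶ x) ⊕ (d ⟶ y)) → ((d ⟶ x) ⊕ (d ⟶ y)) → Prop
  | Sum.inl s, Sum.inl s' => s = s'
  | Sum.inl s, Sum.inr t => ∃ w : d ⟶ z, w ≫ l = s ∧ w ≫ r = t
  | Sum.inr t, Sum.inl s => ∃ w : d ⟶ z, w ≫ l = s ∧ w ≫ r = t
  | Sum.inr t, Sum.inr t' => t = t'

theorem Pt.exact [Mono l] [Mono r] {d : D} {a b : (d ⟶ x) ⊕ (d ⟶ y)}
    (h : (Quot.mk _ a : Pt l r d) = Quot.mk _ b) : PtGood l r a b := by
  let F : Pt l r d → Prop := Quot.lift (fun b => PtGood l r a b) (by
    rintro _ _ ⟨w⟩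
    apply propext
    cases a with
    | inl s =>
      constructor
      · intro hs
        exact ⟨w, (show s = w ≫ l from hs).symm, rfl⟩
      · rintro ⟨w', h1, h2⟩
        have : w' = w := by rwa [cancel_mono] at h2
        subst this
        exact h1.symm
    | inr s =>
      constructor
      · rintro ⟨w', h1, h2⟩
        have : w' = w := by rwa [cancel_mono] at h1
        subst this
        exact h2.symm
      · intro hs
        exact ⟨w, rfl, (show s = w ≫ r from hs).symm⟩)
  have h1 : F (Quot.mk _ a) := by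
    show PtGood l r a a
    cases a with
    | inl s => exact rfl
    | inr s => exact rfl
  have h2 : F (Quot.mk _ b) := h ▸ h1
  exact h2

/-- Precomposition of points. -/
def Pt.pre {d e : D} (g : e ⟶ d) : Pt l r d → Pt l r e :=
  Quot.lift (fun a => Quot.mk _ (Sum.map (fun s => g ≫ s) (fun s => g ≫ s) a)) (by
    rintro _ _ ⟨w⟩
    show Pt.inl l r (g ≫ w ≫ l) = Pt.inr l r (g ≫ w ≫ r)
    rw [← Category.assoc, ← Category.assoc]
    exact Pt.glue l r (g ≫ w))

end Points

/-- Cartesian triples. -/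
@[ext]
structure Cart {z' x' y' z x y : D} (l' : z' ⟶ x') (r' : z' ⟶ y') (l : z ⟶ x) (r : z ⟶ y) :
    Type u where
  p : x' ⟶ x
  m : z' ⟶ z
  q : y' ⟶ y
  hl : IsPB l' m p l
  hr : IsPB r' m q r

/-- Pasting of pullback squares in the form needed for composition of cartesian triples. -/
theorem paste {z'' x'' z' x' z x : D} {l'' : z'' ⟶ x''} {l' : z' ⟶ x'} {l : z ⟶ x}
    {p' : x'' ⟶ x'} {m' : z'' ⟶ z'} {p : x' ⟶ x} {m : z' ⟶ z}
    (h' : IsPB l'' m' p' l') (h : IsPB l' m p l) : IsPB l'' (m' ≫ m) (p' ≫ p) l := by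
  refine ⟨?_, ?_⟩
  · rw [← Category.assoc, h'.1, Category.assoc, h.1, Category.assoc]
  · intro e s t hst
    rw [← Category.assoc] at hst
    obtain ⟨w, hw1, hw2⟩ := h.2 _ _ hst
    obtain ⟨w', hw1', hw2'⟩ := h'.2 _ _ hw1.symm
    exact ⟨w', hw1', by rw [← Category.assoc, hw2', hw2]⟩

theorem isPB_id {z x : D} (l : z ⟶ x) : IsPB l (𝟙 z) (𝟙 x) l := by
  refine ⟨by rw [Category.comp_id, Category.id_comp], ?_⟩
  intro e s t hst
  exact ⟨t, by rw [← hst, Category.comp_id], Category.comp_id _⟩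

namespace Cart

/-- Identity triple. -/
def id {z x y : D} (l : z ⟶ x) (r : z ⟶ y) : Cart l r l r where
  p := 𝟙 x
  m := 𝟙 z
  q := 𝟙 y
  hl := isPB_id l
  hr := isPB_id r

/-- Composition of triples. -/
def comp {z'' x'' y'' z' x' y' z x y : D} {l'' : z'' ⟶ x''} {r'' : z'' ⟶ y''}
    {l' : z' ⟶ x'} {r' : z' ⟶ y'} {l : z ⟶ x} {r : z ⟶ y}
    (f : Cart l'' r'' l' r') (g : Cart l' r' l r) : Cart l'' r'' l r where
  p := f.p ≫ g.p
  m := f.m ≫ g.m
  q := f.q ≫ g.q
  hl := paste f.hl g.hl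
  hr := paste f.hr g.hr

end Cart

/-- Action of a triple on points. -/
def Pt.push {z' x' y' z x y : D} {l' : z' ⟶ x'} {r' : z' ⟶ y'} {l : z ⟶ x} {r : z ⟶ y}
    (g : Cart l' r' l r) {d : D} : Pt l' r' d → Pt l r d :=
  Quot.lift (fun a => Quot.mk _ (Sum.map (fun s => s ≫ g.p) (fun s => s ≫ g.q) a)) (by
    rintro _ _ ⟨w⟩
    show Pt.inl l r ((w ≫ l') ≫ g.p) = Pt.inr l r ((w ≫ r') ≫ g.q)
    rw [Category.assoc, Category.assoc, g.hl.1, g.hr.1, ← Category.assoc, ← Category.assoc]
    exact Pt.glue l r (w ≫ g.m))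

/-- Morphisms. -/
def StHom : StOb D → StOb D → Type u
  | .old x, .old y => (x ⟶ y)
  | .old d, .sp l r => Pt l r d
  | .sp _ _, .old _ => PEmpty
  | .sp l' r', .sp l r => Cart l' r' l r

/-- Identities. -/
def StHom.id : (A : StOb D) → StHom A A
  | .old x => 𝟙 x
  | .sp l r => Cart.id l r

/-- Composition. -/
def StHom.comp : (A B C : StOb D) → StHom A B → StHom B C → StHom A C
  | .old _, .old _, .old _, f, g => CategoryStruct.comp (obj := D) f g
  | .old _, .old _, .sp l r, f, g => Pt.pre l r f g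
  | .old _, .sp _ _, .old _, _, g => PEmpty.elim g
  | .old _, .sp _ _, .sp _ _, t, g => Pt.push g t
  | .sp _ _, .old _, _, f, _ => PEmpty.elim f
  | .sp _ _, .sp _ _, .old _, _, g => PEmpty.elim g
  | .sp _ _, .sp _ _, .sp _ _, f, g => Cart.comp f g

theorem StHom.id_comp : ∀ (A B : StOb D) (f : StHom A B), StHom.comp A A B (StHom.id A) f = f
  | .old _, .old _, f => Category.id_comp (obj := D) f
  | .old _, .sp l r, f => by
    rcases Pt.cases l r f with ⟨s, rfl⟩ | ⟨s, rfl⟩
    · show Pt.inl l r (𝟙 _ ≫ s) = _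
      rw [Category.id_comp]
    · show Pt.inr l r (𝟙 _ ≫ s) = _
      rw [Category.id_comp]
  | .sp _ _, .old _, f => PEmpty.elim f
  | .sp _ _, .sp _ _, f => Cart.ext (Category.id_comp _) (Category.id_comp _) (Category.id_comp _)

theorem StHom.comp_id : ∀ (A B : StOb D) (f : StHom A B), StHom.comp A B B f (StHom.id B) = f
  | .old _, .old _, f => Category.comp_id (obj := D) f
  | .old _, .sp l r, f => by
    rcases Pt.cases l r f with ⟨s, rfl⟩ | ⟨s, rfl⟩
    · show Pt.inl l r (s ≫ 𝟙 _) = _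
      rw [Category.comp_id]
    · show Pt.inr l r (s ≫ 𝟙 _) = _
      rw [Category.comp_id]
  | .sp _ _, .old _, f => PEmpty.elim f
  | .sp _ _, .sp _ _, f => Cart.ext (Category.comp_id _) (Category.comp_id _) (Category.comp_id _)

theorem StHom.assoc : ∀ (A B C E : StOb D) (f : StHom A B) (g : StHom B C) (h : StHom C E),
    StHom.comp A C E (StHom.comp A B C f g) h = StHom.comp A B E f (StHom.comp B C E g h)
  | .old _, .old _, .old _, .old _, f, g, h => Category.assoc (obj := D) f g h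
  | .old _, .old _, .old _, .sp l r, f, g, h => by
    rcases Pt.cases l r h with ⟨s, rfl⟩ | ⟨s, rfl⟩
    · exact congrArg (Pt.inl l r) (Category.assoc _ _ _)
    · exact congrArg (Pt.inr l r) (Category.assoc _ _ _)
  | .old _, .old _, .sp l r, .sp l' r', f, g, h => by
    rcases Pt.cases l r g with ⟨s, rfl⟩ | ⟨s, rfl⟩
    · exact congrArg (Pt.inl l' r') (Category.assoc _ _ _)
    · exact congrArg (Pt.inr l' r') (Category.assoc _ _ _)
  | .old _, .sp l r, .sp _ _, .sp l' r', f, g, h => by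
    rcases Pt.cases l r f with ⟨s, rfl⟩ | ⟨s, rfl⟩
    · exact congrArg (Pt.inl l' r') (Category.assoc _ _ _)
    · exact congrArg (Pt.inr l' r') (Category.assoc _ _ _)
  | .sp _ _, .sp _ _, .sp _ _, .sp _ _, f, g, h =>
    Cart.ext (Category.assoc _ _ _) (Category.assoc _ _ _) (Category.assoc _ _ _)
  | .sp _ _, .old _, _, _, f, _, _ => PEmpty.elim f
  | _, .sp _ _, .old _, _, _, g, _ => PEmpty.elim g
  | _, _, .sp _ _, .old _, _, _, h => PEmpty.elim h

instance StOb.category : Category.{u} (StOb D) where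
  Hom := StHom
  id := StHom.id
  comp := fun f g => StHom.comp _ _ _ f g
  id_comp := StHom.id_comp _ _
  comp_id := StHom.comp_id _ _
  assoc := StHom.assoc _ _ _ _

end Vale.Agent.P323.H14
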