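import Vale.Agent.P323.H14.Star

/-!
# The span category is again a stage (section 4)

The constructors `o`, `jL`, `jR`, `sq` of morphisms, their composition rules, the exactness
rules, then monos, pullbacks, the free amalgams, and the packaged statement `exists_star`.
-/

namespace Vale.Agent.P323.H14

open CategoryTheory Vale.Agent.P323.Z

universe u

variable {D : Type u} [Category.{u} D]

/-- All morphisms are mono. -/
class AM (D : Type u) [Category.{u} D] : Prop where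
  mono : ∀ {x y : D} (f : x ⟶ y), Mono f

instance (priority := 50) instMonoOfAM [AM D] {x y : D} (f : x ⟶ y) : Mono f := AM.mono f

/-! ### Constructors of morphisms -/

/-- An old morphism. -/
def o {x y : D} (f : x ⟶ y) : (StOb.old x : StOb D) ⟶ StOb.old y := f

/-- A left point. -/
def jL {z x y : D} (l : z ⟶ x) (r : z ⟶ y) {d : D} (s : d ⟶ x) :
    (StOb.old d : StOb D) ⟶ StOb.sp l r := Pt.inl l r s

/-- A right point. -/
def jR {z x y : D} (l : z ⟶ x) (r : z ⟶ y) {d : D} (s : d ⟶ y) :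
    (StOb.old d : StOb D) ⟶ StOb.sp l r := Pt.inr l r s

/-- A cartesian triple as a morphism of spans. -/
def sq {z' x' y' z x y : D} {l' : z' ⟶ x'} {r' : z' ⟶ y'} {l : z ⟶ x} {r : z ⟶ y}
    (c : Cart l' r' l r) : (StOb.sp l' r' : StOb D) ⟶ StOb.sp l r := c

theorem o_id (x : D) : o (𝟙 x) = 𝟙 (StOb.old x) := rfl

theorem o_o {x y z : D} (f : x ⟶ y) (g : y ⟶ z) : o f ≫ o g = o (f ≫ g) := rfl

theorem o_jL {z x y : D} (l : z ⟶ x) (r : z ⟶ y) {e d : D} (g : e ⟶ d) (s : d ⟶ x) :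
    o g ≫ jL l r s = jL l r (g ≫ s) := rfl

theorem o_jR {z x y : D} (l : z ⟶ x) (r : z ⟶ y) {e d : D} (g : e ⟶ d) (s : d ⟶ y) :
    o g ≫ jR l r s = jR l r (g ≫ s) := rfl

theorem jL_sq {z' x' y' z x y : D} {l' : z' ⟶ x'} {r' : z' ⟶ y'} {l : z ⟶ x} {r : z ⟶ y}
    (c : Cart l' r' l r) {d : D} (s : d ⟶ x') : jL l' r' s ≫ sq c = jL l r (s ≫ c.p) := rfl

theorem jR_sq {z' x' y' z x y : D} {l' : z' ⟶ x'} {r' : z' ⟶ y'} {l : z ⟶ x} {r : z ⟶ y}
    (c : Cart l' r' l r) {d : D} (s : d ⟶ y') : jR l' r' s ≫ sq c = jR l r (s ≫ c.q) := rfl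

theorem sq_sq {z'' x'' y'' z' x' y' z x y : D} {l'' : z'' ⟶ x''} {r'' : z'' ⟶ y''}
    {l' : z' ⟶ x'} {r' : z' ⟶ y'} {l : z ⟶ x} {r : z ⟶ y}
    (f : Cart l'' r'' l' r') (g : Cart l' r' l r) : sq f ≫ sq g = sq (f.comp g) := rfl

theorem glue {z x y : D} (l : z ⟶ x) (r : z ⟶ y) {d : D} (w : d ⟶ z) :
    jL l r (w ≫ l) = jR l r (w ≫ r) := Pt.glue l r w

theorem old_old {x y : D} (t : (StOb.old x : StOb D) ⟶ StOb.old y) : ∃ f, t = o f := ⟨t, rfl⟩

theorem pt_cases {z x y : D} {l : z ⟶ x} {r : z ⟶ y} {d : D}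
    (t : (StOb.old d : StOb D) ⟶ StOb.sp l r) : (∃ s, t = jL l r s) ∨ ∃ s, t = jR l r s :=
  Pt.cases l r t

theorem sp_sp {z' x' y' z x y : D} {l' : z' ⟶ x'} {r' : z' ⟶ y'} {l : z ⟶ x} {r : z ⟶ y}
    (t : (StOb.sp l' r' : StOb D) ⟶ StOb.sp l r) : ∃ c, t = sq c := ⟨t, rfl⟩

theorem no_old {z x y b : D} {l : z ⟶ x} {r : z ⟶ y}
    (t : (StOb.sp l r : StOb D) ⟶ StOb.old b) : False := PEmpty.elim t

theorem o_inj {x y : D} {f g : x ⟶ y} (h : o f = o g) : f = g := h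

theorem sq_inj {z' x' y' z x y : D} {l' : z' ⟶ x'} {r' : z' ⟶ y'} {l : z ⟶ x} {r : z ⟶ y}
    {c c' : Cart l' r' l r} (h : sq c = sq c') : c = c' := h

section Exact

variable [AM D] {z x y : D} {l : z ⟶ x} {r : z ⟶ y} {d : D}

theorem jL_inj {s s' : d ⟶ x} (h : jL l r s = jL l r s') : s = s' :=
  Pt.exact l r (a := Sum.inl s) (b := Sum.inl s') h

theorem jR_inj {s s' : d ⟶ y} (h : jR l r s = jR l r s') : s = s' :=
  Pt.exact l r (a := Sum.inr s) (b := Sum.inr s') h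

theorem jL_jR {s : d ⟶ x} {t : d ⟶ y} (h : jL l r s = jR l r t) :
    ∃ w : d ⟶ z, w ≫ l = s ∧ w ≫ r = t :=
  Pt.exact l r (a := Sum.inl s) (b := Sum.inr t) h

theorem jR_jL {s : d ⟶ x} {t : d ⟶ y} (h : jR l r t = jL l r s) :
    ∃ w : d ⟶ z, w ≫ l = s ∧ w ≫ r = t :=
  Pt.exact l r (a := Sum.inr t) (b := Sum.inl s) h

end Exact

attribute [irreducible] o jL jR sq

/-! ### All morphisms are mono -/

theorem star_mono [AM D] : ∀ {A B : StOb D} (f : A ⟶ B), Mono f := by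
  intro A B f
  constructor
  intro E g h hgh
  cases A with
  | old a =>
    cases E with
    | sp l r => exact (no_old g).elim
    | old e =>
      obtain ⟨g, rfl⟩ := old_old g
      obtain ⟨h, rfl⟩ := old_old h
      cases B with
      | old b =>
        obtain ⟨f, rfl⟩ := old_old f
        rw [o_o, o_o] at hgh
        have := o_inj hgh
        rw [cancel_mono] at this
        rw [this]
      | sp l r =>
        rcases pt_cases f with ⟨s, rfl⟩ | ⟨s, rfl⟩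
        · rw [o_jL, o_jL] at hgh
          have := jL_inj hgh
          rw [cancel_mono] at this
          rw [this]
        · rw [o_jR, o_jR] at hgh
          have := jR_inj hgh
          rw [cancel_mono] at this
          rw [this]
  | sp l' r' =>
    cases B with
    | old b => exact (no_old f).elim
    | sp l r =>
      obtain ⟨c, rfl⟩ := sp_sp f
      cases E with
      | sp l'' r'' =>
        obtain ⟨g, rfl⟩ := sp_sp g
        obtain ⟨h, rfl⟩ := sp_sp h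
        rw [sq_sq, sq_sq] at hgh
        have := sq_inj hgh
        have h1 : g.p ≫ c.p = h.p ≫ c.p := congrArg Cart.p this
        have h2 : g.m ≫ c.m = h.m ≫ c.m := congrArg Cart.m this
        have h3 : g.q ≫ c.q = h.q ≫ c.q := congrArg Cart.q this
        rw [cancel_mono] at h1 h2 h3
        rw [Cart.ext h1 h2 h3]
      | old e =>
        -- mixed case
        have key : ∀ (s : e ⟶ _) (t : e ⟶ _), jL l' r' s ≫ sq c = jR l' r' t ≫ sq c →
            jL l' r' s = jR l' r' t := by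
          intro s t hst
          rw [jL_sq, jR_sq] at hst
          obtain ⟨w, hw1, hw2⟩ := jL_jR hst
          obtain ⟨k1, hk1, hk1'⟩ := c.hl.2 s w hw1.symm
          obtain ⟨k2, hk2, hk2'⟩ := c.hr.2 t w hw2.symm
          have hk : k1 = k2 := by
            rw [← cancel_mono c.m, hk1', hk2']
          subst hk
          rw [← hk1, ← hk2]
          exact glue l' r' k1
        rcases pt_cases g with ⟨s, rfl⟩ | ⟨s, rfl⟩ <;> rcases pt_cases h with ⟨t, rfl⟩ | ⟨t, rfl⟩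
        · rw [jL_sq, jL_sq] at hgh
          have := jL_inj hgh
          rw [cancel_mono] at this
          rw [this]
        · exact key s t hgh
        · exact (key t s hgh.symm).symm
        · rw [jR_sq, jR_sq] at hgh
          have := jR_inj hgh
          rw [cancel_mono] at this
          rw [this]

instance [AM D] : AM (StOb D) := ⟨star_mono⟩

/-! ### Pullbacks with old target, preservation of pullbacks -/

theorem star_pb_old {z x y b : D} {p : z ⟶ x} {q : z ⟶ y} {f : x ⟶ b} {g : y ⟶ b}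
    (h : IsPB p q f g) : IsPB (o p) (o q) (o f) (o g) := by
  refine ⟨by rw [o_o, o_o, h.1], ?_⟩
  intro E s t hst
  cases E with
  | sp l r => exact (no_old s).elim
  | old e =>
    obtain ⟨s, rfl⟩ := old_old s
    obtain ⟨t, rfl⟩ := old_old t
    rw [o_o, o_o] at hst
    obtain ⟨w, hw1, hw2⟩ := h.2 s t (o_inj hst)
    exact ⟨o w, by rw [o_o, hw1], by rw [o_o, hw2]⟩

/-! ### Free amalgams -/

theorem star_K1 [AM D] {z x y : D} (l : z ⟶ x) (r : z ⟶ y) :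
    IsPB (o l) (o r) (jL l r (𝟙 x)) (jR l r (𝟙 y)) := by
  refine ⟨?_, ?_⟩
  · rw [o_jL, o_jR, Category.comp_id, Category.comp_id]
    have := glue l r (𝟙 z)
    rwa [Category.id_comp, Category.id_comp] at this
  · intro E s t hst
    cases E with
    | sp l r => exact (no_old s).elim
    | old e =>
      obtain ⟨s, rfl⟩ := old_old s
      obtain ⟨t, rfl⟩ := old_old t
      rw [o_jL, o_jR, Category.comp_id, Category.comp_id] at hst
      obtain ⟨w, hw1, hw2⟩ := jL_jR hst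
      exact ⟨o w, by rw [o_o, hw1], by rw [o_o, hw2]⟩

/-- Pullback of a left point along a cartesian triple. -/
theorem star_pb_L [AM D] {z' x' y' z x y : D} {l' : z' ⟶ x'} {r' : z' ⟶ y'} {l : z ⟶ x}
    {r : z ⟶ y} (c : Cart l' r' l r) {d P : D} {s : d ⟶ x} {π : P ⟶ d} {ρ : P ⟶ x'}
    (h : IsPB π ρ s c.p) : IsPB (o π) (jL l' r' ρ) (jL l r s) (sq c) := by
  refine ⟨by rw [o_jL, jL_sq, h.1], ?_⟩
  intro E f g hfg
  cases E with
  | sp l r => exact (no_old f).elim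
  | old e =>
    obtain ⟨f, rfl⟩ := old_old f
    rcases pt_cases g with ⟨t, rfl⟩ | ⟨t, rfl⟩
    · rw [o_jL, jL_sq] at hfg
      obtain ⟨w, hw1, hw2⟩ := h.2 f t (jL_inj hfg)
      exact ⟨o w, by rw [o_o, hw1], by rw [o_jL, hw2]⟩
    · rw [o_jL, jR_sq] at hfg
      obtain ⟨k, hk1, hk2⟩ := jL_jR hfg
      obtain ⟨k', hk1', hk2'⟩ := c.hr.2 t k hk2.symm
      have h3 : f ≫ s = (k' ≫ l') ≫ c.p := by
        rw [Category.assoc, c.hl.1, ← Category.assoc, hk2', hk1]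
      obtain ⟨w, hw1, hw2⟩ := h.2 f _ h3
      refine ⟨o w, by rw [o_o, hw1], ?_⟩
      rw [o_jL, hw2, ← hk1']
      exact glue l' r' k'

/-- Pullback of a right point along a cartesian triple. -/
theorem star_pb_R [AM D] {z' x' y' z x y : D} {l' : z' ⟶ x'} {r' : z' ⟶ y'} {l : z ⟶ x}
    {r : z ⟶ y} (c : Cart l' r' l r) {d P : D} {s : d ⟶ y} {π : P ⟶ d} {ρ : P ⟶ y'}
    (h : IsPB π ρ s c.q) : IsPB (o π) (jR l' r' ρ) (jR l r s) (sq c) := by
  refine ⟨by rw [o_jR, jR_sq, h.1], ?_⟩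
  intro E f g hfg
  cases E with
  | sp l r => exact (no_old f).elim
  | old e =>
    obtain ⟨f, rfl⟩ := old_old f
    rcases pt_cases g with ⟨t, rfl⟩ | ⟨t, rfl⟩
    · rw [o_jR, jL_sq] at hfg
      obtain ⟨k, hk1, hk2⟩ := jR_jL hfg
      obtain ⟨k', hk1', hk2'⟩ := c.hl.2 t k hk1.symm
      have h3 : f ≫ s = (k' ≫ r') ≫ c.q := by
        rw [Category.assoc, c.hr.1, ← Category.assoc, hk2', hk2]
      obtain ⟨w, hw1, hw2⟩ := h.2 f _ h3
      refine ⟨o w, by rw [o_o, hw1], ?_⟩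
      rw [o_jR, hw2, ← hk1']
      exact (glue l' r' k').symm
    · rw [o_jR, jR_sq] at hfg
      obtain ⟨w, hw1, hw2⟩ := h.2 f t (jR_inj hfg)
      exact ⟨o w, by rw [o_o, hw1], by rw [o_jR, hw2]⟩

theorem star_K2 [AM D] {z x y z' x' y' : D} (l : z ⟶ x) (r : z ⟶ y) (l' : z' ⟶ x')
    (r' : z' ⟶ y') (p : x' ⟶ x) (m : z' ⟶ z) (q : y' ⟶ y) (hl : IsPB l' m p l)
    (hr : IsPB r' m q r) :
    ∃ φ : (StOb.sp l' r' : StOb D) ⟶ StOb.sp l r,
      IsPB (jL l' r' (𝟙 x')) (o p) φ (jL l r (𝟙 x)) ∧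
      IsPB (jR l' r' (𝟙 y')) (o q) φ (jR l r (𝟙 y)) := by
  let c : Cart l' r' l r := ⟨p, m, q, hl, hr⟩
  refine ⟨sq c, ?_, ?_⟩
  · have h : IsPB p (𝟙 x') (𝟙 x) c.p := isPB_id p
    exact (star_pb_L c h).symm
  · have h : IsPB q (𝟙 y') (𝟙 y) c.q := isPB_id q
    exact (star_pb_R c h).symm

/-! ### Existence of pullbacks -/

/-- All cospans have pullbacks. -/
class HP (D : Type u) [Category.{u} D] : Prop where
  pb : ∀ {x y b : D} (f : x ⟶ b) (g : y ⟶ b), ∃ (z : D) (p : z ⟶ x) (q : z ⟶ y), IsPB p q f g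

/-- A left point and a right point. -/
theorem star_pb_LR [AM D] [HP D] {z x y : D} (l : z ⟶ x) (r : z ⟶ y) {d e : D} (s : d ⟶ x)
    (t : e ⟶ y) : ∃ (P : StOb D) (p : P ⟶ StOb.old d) (q : P ⟶ StOb.old e),
      IsPB p q (jL l r s) (jR l r t) := by
  obtain ⟨P1, a1, b1, h1⟩ := HP.pb s l
  obtain ⟨P2, a2, b2, h2⟩ := HP.pb r t
  obtain ⟨P, a, b, h⟩ := HP.pb b1 a2
  refine ⟨StOb.old P, o (a ≫ a1), o (b ≫ b2), ?_, ?_⟩
  · rw [o_jL, o_jR, Category.assoc, h1.1, Category.assoc, ← h2.1, ← Category.assoc,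
      ← Category.assoc, h.1]
    exact glue l r (b ≫ a2)
  · intro E f g hfg
    cases E with
    | sp l r => exact (no_old f).elim
    | old c =>
      obtain ⟨f, rfl⟩ := old_old f
      obtain ⟨g, rfl⟩ := old_old g
      rw [o_jL, o_jR] at hfg
      obtain ⟨k, hk1, hk2⟩ := jL_jR hfg
      obtain ⟨w1, hw1, hw1'⟩ := h1.2 f k hk1.symm
      obtain ⟨w2, hw2, hw2'⟩ := h2.2 k g hk2
      obtain ⟨w, hw, hw'⟩ := h.2 w1 w2 (hw1'.trans hw2.symm)
      refine ⟨o w, ?_, ?_⟩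
      · rw [o_o, ← Category.assoc, hw, hw1]
      · rw [o_o, ← Category.assoc, hw', hw2']

theorem star_pb_LL [AM D] {z x y : D} (l : z ⟶ x) (r : z ⟶ y) {d e P : D} {s : d ⟶ x}
    {t : e ⟶ x} {p : P ⟶ d} {q : P ⟶ e} (h : IsPB p q s t) :
    IsPB (o p) (o q) (jL l r s) (jL l r t) := by
  refine ⟨by rw [o_jL, o_jL, h.1], ?_⟩
  intro E f g hfg
  cases E with
  | sp l r => exact (no_old f).elim
  | old c =>
    obtain ⟨f, rfl⟩ := old_old f
    obtain ⟨g, rfl⟩ := old_old g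
    rw [o_jL, o_jL] at hfg
    obtain ⟨w, hw, hw'⟩ := h.2 f g (jL_inj hfg)
    exact ⟨o w, by rw [o_o, hw], by rw [o_o, hw']⟩

theorem star_pb_RR [AM D] {z x y : D} (l : z ⟶ x) (r : z ⟶ y) {d e P : D} {s : d ⟶ y}
    {t : e ⟶ y} {p : P ⟶ d} {q : P ⟶ e} (h : IsPB p q s t) :
    IsPB (o p) (o q) (jR l r s) (jR l r t) := by
  refine ⟨by rw [o_jR, o_jR, h.1], ?_⟩
  intro E f g hfg
  cases E with
  | sp l r => exact (no_old f).elim
  | old c =>
    obtain ⟨f, rfl⟩ := old_old f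
    obtain ⟨g, rfl⟩ := old_old g
    rw [o_jR, o_jR] at hfg
    obtain ⟨w, hw, hw'⟩ := h.2 f g (jR_inj hfg)
    exact ⟨o w, by rw [o_o, hw], by rw [o_o, hw']⟩

/-- The induced map of pullbacks, with a cartesian square. -/
theorem induced [AM D] {z x z1 x1 z2 x2 z3 x3 : D} {l : z ⟶ x} {l1 : z1 ⟶ x1} {l2 : z2 ⟶ x2}
    {p1 : x1 ⟶ x} {m1 : z1 ⟶ z} {p2 : x2 ⟶ x} {m2 : z2 ⟶ z}
    (h1 : IsPB l1 m1 p1 l) (h2 : IsPB l2 m2 p2 l) {a1 : x3 ⟶ x1} {a2 : x3 ⟶ x2}
    (hx : IsPB a1 a2 p1 p2) {b1 : z3 ⟶ z1} {b2 : z3 ⟶ z2} (hz : IsPB b1 b2 m1 m2) :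
    ∃ l3 : z3 ⟶ x3, IsPB l3 b1 a1 l1 ∧ IsPB l3 b2 a2 l2 := by
  have e1 : (b1 ≫ l1) ≫ p1 = (b2 ≫ l2) ≫ p2 := by
    rw [Category.assoc, Category.assoc, h1.1, h2.1, ← Category.assoc, ← Category.assoc, hz.1]
  obtain ⟨l3, hl1, hl2⟩ := hx.2 _ _ e1
  refine ⟨l3, ⟨hl1, ?_⟩, ⟨hl2, ?_⟩⟩
  · intro e s t hst
    have h3 : (s ≫ a2) ≫ p2 = (t ≫ m1) ≫ l := by
      rw [Category.assoc, ← hx.1, ← Category.assoc, hst, Category.assoc, h1.1, Category.assoc]
    obtain ⟨k, hk1, hk2⟩ := h2.2 _ _ h3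
    obtain ⟨w, hw1, hw2⟩ := hz.2 t k hk2.symm
    refine ⟨w, ?_, hw1⟩
    rw [← cancel_mono a1, Category.assoc, hl1, ← Category.assoc, hw1, hst]
  · intro e s t hst
    have h3 : (s ≫ a1) ≫ p1 = (t ≫ m2) ≫ l := by
      rw [Category.assoc, hx.1, ← Category.assoc, hst, Category.assoc, h2.1, Category.assoc]
    obtain ⟨k, hk1, hk2⟩ := h1.2 _ _ h3
    obtain ⟨w, hw1, hw2⟩ := hz.2 k t hk2
    refine ⟨w, ?_, hw2⟩
    rw [← cancel_mono a2, Category.assoc, hl2, ← Category.assoc, hw2, hst]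

/-- The mediating map into a componentwise pullback is cartesian. -/
theorem mediate [AM D] {z1 x1 z3 x3 z4 x4 : D} {l1 : z1 ⟶ x1} {l3 : z3 ⟶ x3} {l4 : z4 ⟶ x4}
    {a1 : x3 ⟶ x1} {b1 : z3 ⟶ z1} {p4 : x4 ⟶ x1} {m4 : z4 ⟶ z1}
    (h3 : IsPB l3 b1 a1 l1) (h4 : IsPB l4 m4 p4 l1) {p : x4 ⟶ x3} {m : z4 ⟶ z3}
    (hp : p ≫ a1 = p4) (hm : m ≫ b1 = m4) : IsPB l4 m p l3 := by
  refine ⟨?_, ?_⟩
  · rw [← cancel_mono a1, Category.assoc, hp, h4.1, Category.assoc, h3.1, ← Category.assoc, hm]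
  · intro e s t hst
    have h5 : s ≫ p4 = (t ≫ b1) ≫ l1 := by
      rw [← hp, ← Category.assoc, hst, Category.assoc, h3.1, Category.assoc]
    obtain ⟨k, hk1, hk2⟩ := h4.2 _ _ h5
    refine ⟨k, hk1, ?_⟩
    rw [← cancel_mono b1, Category.assoc, hm, hk2]

/-- Two cartesian triples. -/
theorem star_pb_SS [AM D] [HP D] {z x y z1 x1 y1 z2 x2 y2 : D} {l : z ⟶ x} {r : z ⟶ y}
    {l1 : z1 ⟶ x1} {r1 : z1 ⟶ y1} {l2 : z2 ⟶ x2} {r2 : z2 ⟶ y2}
    (c1 : Cart l1 r1 l r) (c2 : Cart l2 r2 l r) :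
    ∃ (P : StOb D) (p : P ⟶ StOb.sp l1 r1) (q : P ⟶ StOb.sp l2 r2),
      IsPB p q (sq c1) (sq c2) := by
  obtain ⟨x3, a1, a2, ha⟩ := HP.pb c1.p c2.p
  obtain ⟨z3, b1, b2, hb⟩ := HP.pb c1.m c2.m
  obtain ⟨y3, d1, d2, hd⟩ := HP.pb c1.q c2.q
  obtain ⟨l3, hl1, hl2⟩ := induced c1.hl c2.hl ha hb
  obtain ⟨r3, hr1, hr2⟩ := induced c1.hr c2.hr hd hb
  refine ⟨StOb.sp l3 r3, sq ⟨a1, b1, d1, hl1, hr1⟩, sq ⟨a2, b2, d2, hl2, hr2⟩, ?_, ?_⟩
  · rw [sq_sq, sq_sq]
    exact congrArg sq (Cart.ext ha.1 hb.1 hd.1)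
  · intro E f g hfg
    cases E with
    | sp l4 r4 =>
      obtain ⟨f, rfl⟩ := sp_sp f
      obtain ⟨g, rfl⟩ := sp_sp g
      rw [sq_sq, sq_sq] at hfg
      have h0 := sq_inj hfg
      have hp : f.p ≫ c1.p = g.p ≫ c2.p := congrArg Cart.p h0
      have hm : f.m ≫ c1.m = g.m ≫ c2.m := congrArg Cart.m h0
      have hq : f.q ≫ c1.q = g.q ≫ c2.q := congrArg Cart.q h0
      obtain ⟨p, hp1, hp2⟩ := ha.2 _ _ hp
      obtain ⟨m, hm1, hm2⟩ := hb.2 _ _ hm
      obtain ⟨q, hq1, hq2⟩ := hd.2 _ _ hq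
      refine ⟨sq ⟨p, m, q, mediate hl1 f.hl hp1 hm1, mediate hr1 f.hr hq1 hm1⟩, ?_, ?_⟩
      · rw [sq_sq]
        exact congrArg sq (Cart.ext hp1 hm1 hq1)
      · rw [sq_sq]
        exact congrArg sq (Cart.ext hp2 hm2 hq2)
    | old e =>
      rcases pt_cases f with ⟨s, rfl⟩ | ⟨s, rfl⟩ <;> rcases pt_cases g with ⟨t, rfl⟩ | ⟨t, rfl⟩
      · rw [jL_sq, jL_sq] at hfg
        obtain ⟨w, hw1, hw2⟩ := ha.2 s t (jL_inj hfg)
        refine ⟨jL l3 r3 w, ?_, ?_⟩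
        · rw [jL_sq, hw1]
        · rw [jL_sq, hw2]
      · rw [jL_sq, jR_sq] at hfg
        obtain ⟨k, hk1, hk2⟩ := jL_jR hfg
        obtain ⟨k1, hk11, hk12⟩ := c1.hl.2 s k hk1.symm
        obtain ⟨k2, hk21, hk22⟩ := c2.hr.2 t k hk2.symm
        obtain ⟨w, hw1, hw2⟩ := hb.2 k1 k2 (hk12.trans hk22.symm)
        refine ⟨jL l3 r3 (w ≫ l3), ?_, ?_⟩
        · rw [jL_sq]
          show jL l1 r1 ((w ≫ l3) ≫ a1) = _
          rw [Category.assoc, hl1.1, ← Category.assoc, hw1, hk11]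
        · rw [jL_sq]
          show jL l2 r2 ((w ≫ l3) ≫ a2) = _
          rw [Category.assoc, hl2.1, ← Category.assoc, hw2, ← hk21]
          exact glue l2 r2 k2
      · rw [jR_sq, jL_sq] at hfg
        obtain ⟨k, hk1, hk2⟩ := jR_jL hfg
        obtain ⟨k1, hk11, hk12⟩ := c1.hr.2 s k hk2.symm
        obtain ⟨k2, hk21, hk22⟩ := c2.hl.2 t k hk1.symm
        obtain ⟨w, hw1, hw2⟩ := hb.2 k1 k2 (hk12.trans hk22.symm)
        refine ⟨jR l3 r3 (w ≫ r3), ?_, ?_⟩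
        · rw [jR_sq]
          show jR l1 r1 ((w ≫ r3) ≫ d1) = _
          rw [Category.assoc, hr1.1, ← Category.assoc, hw1, hk11]
        · rw [jR_sq]
          show jR l2 r2 ((w ≫ r3) ≫ d2) = _
          rw [Category.assoc, hr2.1, ← Category.assoc, hw2, ← hk21]
          exact (glue l2 r2 k2).symm
      · rw [jR_sq, jR_sq] at hfg
        obtain ⟨w, hw1, hw2⟩ := hd.2 s t (jR_inj hfg)
        refine ⟨jR l3 r3 w, ?_, ?_⟩
        · rw [jR_sq, hw1]
        · rw [jR_sq, hw2]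

theorem star_pb_exists [AM D] [HP D] : ∀ {A B C : StOb D} (f : A ⟶ C) (g : B ⟶ C),
    ∃ (P : StOb D) (p : P ⟶ A) (q : P ⟶ B), IsPB p q f g := by
  intro A B C f g
  cases C with
  | old c =>
    cases A with
    | sp l r => exact (no_old f).elim
    | old a =>
      cases B with
      | sp l r => exact (no_old g).elim
      | old b =>
        obtain ⟨f, rfl⟩ := old_old f
        obtain ⟨g, rfl⟩ := old_old g
        obtain ⟨P, p, q, h⟩ := HP.pb f g
        exact ⟨_, _, _, star_pb_old h⟩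
  | sp l r =>
    -- old against span
    have key : ∀ {d z' x' y' : D} {l' : z' ⟶ x'} {r' : z' ⟶ y'}
        (f : (StOb.old d : StOb D) ⟶ StOb.sp l r) (g : (StOb.sp l' r' : StOb D) ⟶ StOb.sp l r),
        ∃ (P : StOb D) (p : P ⟶ StOb.old d) (q : P ⟶ StOb.sp l' r'), IsPB p q f g := by
      intro d z' x' y' l' r' f g
      obtain ⟨c, rfl⟩ := sp_sp g
      rcases pt_cases f with ⟨s, rfl⟩ | ⟨s, rfl⟩
      · obtain ⟨P, p, q, h⟩ := HP.pb s c.p
        exact ⟨_, _, _, star_pb_L c h⟩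
      · obtain ⟨P, p, q, h⟩ := HP.pb s c.q
        exact ⟨_, _, _, star_pb_R c h⟩
    cases A with
    | sp l1 r1 =>
      cases B with
      | sp l2 r2 =>
        obtain ⟨c1, rfl⟩ := sp_sp f
        obtain ⟨c2, rfl⟩ := sp_sp g
        exact star_pb_SS c1 c2
      | old b =>
        obtain ⟨P, p, q, h⟩ := key g f
        exact ⟨P, q, p, h.symm⟩
    | old a =>
      cases B with
      | sp l2 r2 => exact key f g
      | old b =>
        rcases pt_cases f with ⟨s, rfl⟩ | ⟨s, rfl⟩ <;> rcases pt_cases g with ⟨t, rfl⟩ | ⟨t, rfl⟩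
        · obtain ⟨P, p, q, h⟩ := HP.pb s t
          exact ⟨_, _, _, star_pb_LL l r h⟩
        · exact star_pb_LR l r s t
        · obtain ⟨P, p, q, h⟩ := star_pb_LR l r t s
          exact ⟨P, q, p, h.symm⟩
        · obtain ⟨P, p, q, h⟩ := HP.pb s t
          exact ⟨_, _, _, star_pb_RR l r h⟩

instance [AM D] [HP D] : HP (StOb D) := ⟨star_pb_exists⟩

/-! ### The package -/

/-- What the span construction provides over a stage. -/
structure Star (D : Type u) [Category.{u} D] (a : ℕ → D) (ι : ∀ n, a n ⟶ a (n + 1)) where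
  T : Type u
  [cat : Category.{u} T]
  Ψ : D ⥤ T
  inj : Function.Injective Ψ.obj
  full : ∀ {x y : D} (f : Ψ.obj x ⟶ Ψ.obj y), ∃ g, Ψ.map g = f
  faithful : ∀ {x y : D} {f g : x ⟶ y}, Ψ.map f = Ψ.map g → f = g
  pb : ∀ {z x y b : D} {p : z ⟶ x} {q : z ⟶ y} {f : x ⟶ b} {g : y ⟶ b}, IsPB p q f g →
    IsPB (Ψ.map p) (Ψ.map q) (Ψ.map f) (Ψ.map g)
  stage : IsStage T (fun n => Ψ.obj (a n)) (fun n => Ψ.map (ι n))
  src : ∀ {d : T} {b : D}, (d ⟶ Ψ.obj b) → ∃ e, Ψ.obj e = d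
  am : ∀ {z x y : D} (_ : z ⟶ x) (_ : z ⟶ y), T
  jl : ∀ {z x y : D} (l : z ⟶ x) (r : z ⟶ y), Ψ.obj x ⟶ am l r
  jr : ∀ {z x y : D} (l : z ⟶ x) (r : z ⟶ y), Ψ.obj y ⟶ am l r
  K1 : ∀ {z x y : D} (l : z ⟶ x) (r : z ⟶ y), IsPB (Ψ.map l) (Ψ.map r) (jl l r) (jr l r)
  K2 : ∀ {z x y z' x' y' : D} (l : z ⟶ x) (r : z ⟶ y) (l' : z' ⟶ x') (r' : z' ⟶ y')
    (p : x' ⟶ x) (m : z' ⟶ z) (q : y' ⟶ y), IsPB l' m p l → IsPB r' m q r →
    ∃ φ : am l' r' ⟶ am l r,
      IsPB (jl l' r') (Ψ.map p) φ (jl l r) ∧ IsPB (jr l' r') (Ψ.map q) φ (jr l r)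

/-- The embedding of the old category. -/
def emb (D : Type u) [Category.{u} D] : D ⥤ StOb D where
  obj := StOb.old
  map := fun f => o f
  map_id := fun x => by unfold o; rfl
  map_comp := fun f g => (o_o f g).symm

/-- **The span construction.** -/
def star (D : Type u) [Category.{u} D] (a : ℕ → D) (ι : ∀ n, a n ⟶ a (n + 1))
    (h : IsStage D a ι) : Star D a ι :=
  haveI : AM D := ⟨h.mono⟩
  haveI : HP D := ⟨h.pb⟩
  { T := StOb D
    Ψ := emb D
    inj := fun x y hxy => by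
      have : StOb.old x = StOb.old y := hxy
      injection this
    full := fun f => by
      obtain ⟨g, hg⟩ := old_old f
      exact ⟨g, hg.symm⟩
    faithful := fun {x y f g} hfg => by
      have h0 : o f = o g := hfg
      unfold o at h0
      exact h0
    pb := fun h => star_pb_old h
    stage :=
      { mono := star_mono
        pb := star_pb_exists
        ι_not := by
          rintro n ⟨f, hf⟩
          obtain ⟨g, rfl⟩ := old_old f
          refine h.ι_not n ⟨g, ?_⟩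
          have h1 : o g ≫ o (ι n) = 𝟙 (StOb.old (a (n + 1))) := hf
          rw [o_o] at h1
          unfold o at h1
          exact h1
        from_a0 := by
          intro x
          cases x with
          | old x => exact (h.from_a0 x).map (fun f => o f)
          | sp l r => exact (h.from_a0 _).map (fun f => jL l r f) }
    src := fun {d b} f => by
      cases d with
      | old d => exact ⟨d, rfl⟩
      | sp l r => exact (no_old f).elim
    am := fun l r => StOb.sp l r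
    jl := fun l r => jL l r (𝟙 _)
    jr := fun l r => jR l r (𝟙 _)
    K1 := fun l r => star_K1 l r
    K2 := fun l r l' r' p m q hl hr => star_K2 l r l' r' p m q hl hr }

theorem exists_star (D : Type u) [Category.{u} D] (a : ℕ → D) (ι : ∀ n, a n ⟶ a (n + 1))
    (h : IsStage D a ι) : Nonempty (Star D a ι) := ⟨star D a ι h⟩

end Vale.Agent.P323.H14
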